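import Crest.Statements.S0112
import Crest.Agent.Rec.Greedy
import Crest.Agent.Rec.Smooth
import Crest.Agent.Rec.Trunc

set_option autoImplicit false
open Crest Crest.AnalysisR Crest.AnalysisR.OperatorAlgebra

namespace Crest.Agent.S0112

open Crest.OpAlg Crest.Agent.Rec
open scoped BoundedContinuousFunction InnerProductSpace

/-- The uniform fourth-moment bound used in the assembly. -/
noncomputable def bndA (s c τ : ℝ) : ℝ := 256 * (1 + 2 * Real.exp (s + 2)) * τ ^ 2 / c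

/-- The truncation parameter used in the assembly. -/
noncomputable def bndE (s c τ : ℝ) : ℝ := c / (32 * τ ^ 2 * bndA s c τ ^ 2)

theorem bndA_pos (s : ℝ) {c τ : ℝ} (hc : 0 < c) (hτ : 0 < τ) : 0 < bndA s c τ := by
  unfold bndA
  have := Real.exp_pos (s + 2)
  positivity

theorem bndE_pos (s : ℝ) {c τ : ℝ} (hc : 0 < c) (hτ : 0 < τ) : 0 < bndE s c τ := by
  unfold bndE
  have := bndA_pos s hc hτ
  positivity

/-- The construction for one good index. -/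
theorem one_index {H : Type*} [NormedAddCommGroup H] [InnerProductSpace ℂ H] [CompleteSpace H]
    (S : Crest.OpAlg.ModularDatum H) (herg : S.Ergodic)
    (ω : Ultrafilter ℕ) (hω : (ω : Filter ℕ) ≤ Filter.atTop)
    (T : H →L[ℂ] H) (s : ℝ) {r : ℝ} (hr : 0 < r) (hr1 : r ≤ 1) {c : ℝ} (hc : 0 < c)
    {hv : H} (hnorm : ‖hv‖ = 1)
    (hband : S.D.SupportedIn (Set.Icc (s - r) (s + r)) hv)
    (hq : c ≤ qT ω S.D T hv) :
    ∃ v : H →L[ℂ] H, v ∈ S.M ∧ ‖v‖ ≤ 3 * Real.sqrt (1 / (2 * bndE s c ‖T‖)) ∧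
      Real.sqrt (c / 128) ≤ ‖T (v S.vac)‖ ∧
      S.D.SupportedIn (Set.Icc (s - 4 * r) (s + 4 * r)) (v S.vac) := by
  -- `‖T‖ > 0`
  have hTsq : c ≤ ‖T‖ ^ 2 := by
    have h1 := qT_le ω S.D T hω hv
    rw [hnorm] at h1
    linarith
  have hT : 0 < ‖T‖ := by
    rcases (norm_nonneg T).eq_or_lt with h0 | h0
    · rw [← h0] at hTsq; norm_num at hTsq; linarith
    · exact h0
  set A₀ : ℝ := bndA s c ‖T‖ with hA₀
  set ε : ℝ := bndE s c ‖T‖ with hε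
  have hA₀pos : 0 < A₀ := bndA_pos s hc hT
  have hεpos : 0 < ε := bndE_pos s hc hT
  -- Step 1: approximate `hv` by `a ξ`, then localise.
  set η₁ : ℝ := min 1 (Real.sqrt c / (2 * ‖T‖)) with hη₁
  have hη₁pos : 0 < η₁ := by
    have : 0 < Real.sqrt c := Real.sqrt_pos.mpr hc
    rw [hη₁]; positivity
  have hη₁1 : η₁ ≤ 1 := min_le_left _ _
  have hη₁sq : ‖T‖ ^ 2 * η₁ ^ 2 ≤ c / 4 := by
    have h1 : η₁ ≤ Real.sqrt c / (2 * ‖T‖) := min_le_right _ _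
    have h2 : η₁ ^ 2 ≤ (Real.sqrt c / (2 * ‖T‖)) ^ 2 := by
      exact pow_le_pow_left₀ hη₁pos.le h1 2
    have h3 : (Real.sqrt c / (2 * ‖T‖)) ^ 2 = c / (4 * ‖T‖ ^ 2) := by
      rw [div_pow, Real.sq_sqrt hc.le]; ring
    have h4 : ‖T‖ ^ 2 * (c / (4 * ‖T‖ ^ 2)) = c / 4 := by
      field_simp
    calc ‖T‖ ^ 2 * η₁ ^ 2 ≤ ‖T‖ ^ 2 * (c / (4 * ‖T‖ ^ 2)) := by
          rw [← h3]; exact mul_le_mul_of_nonneg_left h2 (by positivity)
      _ = c / 4 := h4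
  obtain ⟨y, ⟨a, rfl⟩, hya⟩ := S.cyclic.exists_dist_lt hv hη₁pos
  have haM : (a : H →L[ℂ] H) ∈ S.M := a.2
  obtain ⟨x, hxM, -, hxv⟩ := exists_localize S haM s hr
  have htrap1 : S.D.apply (trapBCF s r) hv = hv := by
    refine apply_eq_self_of_eq_one S.D hband ?_
    intro u hu
    rw [trapBCF_apply, trapFun_eq_one hr]
    · simp
    · rw [abs_le]; constructor <;> linarith [hu.1, hu.2]
  have hxdist : ‖x S.vac - hv‖ ≤ η₁ := by
    have h1 : x S.vac - hv = S.D.apply (trapBCF s r) ((a : H →L[ℂ] H) S.vac - hv) := by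
      rw [map_sub, htrap1, hxv]
    rw [h1]
    have h2 := norm_apply_apply_le S.D (trapBCF s r) ((a : H →L[ℂ] H) S.vac - hv)
    have h3 : ‖(a : H →L[ℂ] H) S.vac - hv‖ < η₁ := by
      rw [dist_eq_norm] at hya
      rw [← norm_neg, neg_sub]; exact hya
    have h4 := norm_trapBCF_le s r
    calc ‖S.D.apply (trapBCF s r) ((a : H →L[ℂ] H) S.vac - hv)‖
        ≤ ‖trapBCF s r‖ * ‖(a : H →L[ℂ] H) S.vac - hv‖ := h2
      _ ≤ 1 * η₁ := by
          exact mul_le_mul h4 h3.le (norm_nonneg _) zero_le_one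
      _ = η₁ := one_mul _
  have hxsupp : S.D.SupportedIn (Set.Icc (s - 2 * r) (s + 2 * r)) (x S.vac) := by
    rw [hxv]
    refine supportedIn_apply_of_vanish S.D ?_ _
    intro u hu
    rw [trapBCF_apply, trapFun_eq_zero hr]
    · simp
    · by_contra hcon
      rw [not_le] at hcon
      rw [abs_lt] at hcon
      exact hu ⟨by linarith [hcon.1], by linarith [hcon.2]⟩
  have hxnorm : ‖x S.vac‖ ≤ 2 := by
    have h1 : ‖x S.vac‖ ≤ ‖x S.vac - hv‖ + ‖hv‖ := by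
      have := norm_add_le (x S.vac - hv) hv
      rwa [sub_add_cancel] at this
    linarith
  have hq₀ : c / 4 ≤ qT ω S.D T (x S.vac) := by
    have h1 := qT_add_le ω S.D T (x S.vac) (hv - x S.vac)
    rw [add_sub_cancel] at h1
    have h2 := qT_le ω S.D T hω (hv - x S.vac)
    have h3 : ‖hv - x S.vac‖ ^ 2 ≤ η₁ ^ 2 := by
      rw [← norm_neg, neg_sub]
      exact pow_le_pow_left₀ (norm_nonneg _) hxdist 2
    have h4 : ‖T‖ ^ 2 * ‖hv - x S.vac‖ ^ 2 ≤ ‖T‖ ^ 2 * η₁ ^ 2 :=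
      mul_le_mul_of_nonneg_left h3 (by positivity)
    linarith
  have hq₀pos : 0 < qT ω S.D T (x S.vac) := by linarith
  -- Step 2: greedy superposition.
  have hK : Set.Icc (s - 2 * r) (s + 2 * r) ⊆ Set.Iic (s + 2 * r) := fun u hu => hu.2
  obtain ⟨X, hXM, hXsupp, hXq, hXΦ⟩ :=
    exists_superposition S herg ω hω T hxM hK hxsupp hq₀pos
  have hXΦ' : ‖(star X * X) S.vac‖ ≤ A₀ := by
    refine hXΦ.trans ?_
    rw [hA₀]; unfold bndA
    have he : Real.exp (s + 2 * r) ≤ Real.exp (s + 2) := Real.exp_le_exp.mpr (by linarith)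
    have he0 := Real.exp_pos (s + 2 * r)
    have hx4 : ‖x S.vac‖ ^ 4 ≤ 16 := by
      have := pow_le_pow_left₀ (norm_nonneg (x S.vac)) hxnorm 4
      norm_num at this; exact this
    rw [div_le_div_iff₀ hq₀pos hc]
    have hT2 : 0 ≤ ‖T‖ ^ 2 := by positivity
    have hx40 : 0 ≤ ‖x S.vac‖ ^ 4 := by positivity
    have h1 : 4 * (1 + 2 * Real.exp (s + 2 * r)) * ‖x S.vac‖ ^ 4 ≤
        4 * (1 + 2 * Real.exp (s + 2)) * 16 := by
      apply mul_le_mul _ hx4 hx40 (by positivity)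
      linarith
    calc 4 * (1 + 2 * Real.exp (s + 2 * r)) * ‖x S.vac‖ ^ 4 * ‖T‖ ^ 2 * c
        ≤ 4 * (1 + 2 * Real.exp (s + 2)) * 16 * ‖T‖ ^ 2 * c := by
          apply mul_le_mul_of_nonneg_right _ hc.le
          exact mul_le_mul_of_nonneg_right h1 hT2
      _ = 256 * (1 + 2 * Real.exp (s + 2)) * ‖T‖ ^ 2 * (c / 4) := by ring
      _ ≤ 256 * (1 + 2 * Real.exp (s + 2)) * ‖T‖ ^ 2 * qT ω S.D T (x S.vac) := by
          apply mul_le_mul_of_nonneg_left hq₀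
          have := Real.exp_pos (s + 2)
          positivity
  -- Step 3: truncation.
  obtain ⟨v₀, hv₀M, hv₀n, hv₀d⟩ := exists_trunc S.M S.vac hXM hεpos
  have hv₀d' : ‖T‖ ^ 2 * ‖(X - v₀) S.vac‖ ^ 2 ≤ c / 64 := by
    have h1 : ‖(star X * X) S.vac‖ ^ 2 ≤ A₀ ^ 2 := pow_le_pow_left₀ (norm_nonneg _) hXΦ' 2
    have h2 : ‖(X - v₀) S.vac‖ ^ 2 ≤ ε / 2 * A₀ ^ 2 :=
      hv₀d.trans (mul_le_mul_of_nonneg_left h1 (by positivity))
    have h3 : ‖T‖ ^ 2 * (ε / 2 * A₀ ^ 2) = c / 64 := by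
      rw [hε]; unfold bndE
      rw [← hA₀]
      field_simp
      norm_num
    calc ‖T‖ ^ 2 * ‖(X - v₀) S.vac‖ ^ 2 ≤ ‖T‖ ^ 2 * (ε / 2 * A₀ ^ 2) :=
          mul_le_mul_of_nonneg_left h2 (by positivity)
      _ = c / 64 := h3
  -- Step 4: relocalise.
  have h2r : 0 < 2 * r := by linarith
  obtain ⟨v, hvM, hvn, hvv⟩ := exists_localize S hv₀M s h2r
  have htrap2 : S.D.apply (trapBCF s (2 * r)) (X S.vac) = X S.vac := by
    refine apply_eq_self_of_eq_one S.D hXsupp ?_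
    intro u hu
    rw [trapBCF_apply, trapFun_eq_one h2r]
    · simp
    · rw [abs_le]; constructor <;> linarith [hu.1, hu.2]
  have hvdist : ‖X S.vac - v S.vac‖ ≤ ‖(X - v₀) S.vac‖ := by
    have h1 : X S.vac - v S.vac = S.D.apply (trapBCF s (2 * r)) ((X - v₀) S.vac) := by
      rw [sub_apply, map_sub, htrap2, hvv]
    rw [h1]
    have h2 := norm_apply_apply_le S.D (trapBCF s (2 * r)) ((X - v₀) S.vac)
    have h4 := norm_trapBCF_le s (2 * r)
    calc ‖S.D.apply (trapBCF s (2 * r)) ((X - v₀) S.vac)‖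
        ≤ ‖trapBCF s (2 * r)‖ * ‖(X - v₀) S.vac‖ := h2
      _ ≤ 1 * ‖(X - v₀) S.vac‖ := mul_le_mul_of_nonneg_right h4 (norm_nonneg _)
      _ = ‖(X - v₀) S.vac‖ := one_mul _
  have hvsupp : S.D.SupportedIn (Set.Icc (s - 4 * r) (s + 4 * r)) (v S.vac) := by
    rw [hvv]
    refine supportedIn_apply_of_vanish S.D ?_ _
    intro u hu
    rw [trapBCF_apply, trapFun_eq_zero h2r]
    · simp
    · by_contra hcon
      rw [not_le] at hcon
      rw [abs_lt] at hcon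
      exact hu ⟨by linarith [hcon.1], by linarith [hcon.2]⟩
  have hvq : c / 64 ≤ qT ω S.D T (v S.vac) := by
    have h1 := qT_add_le ω S.D T (v S.vac) (X S.vac - v S.vac)
    rw [add_sub_cancel] at h1
    have h2 := qT_le ω S.D T hω (X S.vac - v S.vac)
    have h3 : ‖X S.vac - v S.vac‖ ^ 2 ≤ ‖(X - v₀) S.vac‖ ^ 2 :=
      pow_le_pow_left₀ (norm_nonneg _) hvdist 2
    have h4 : ‖T‖ ^ 2 * ‖X S.vac - v S.vac‖ ^ 2 ≤ ‖T‖ ^ 2 * ‖(X - v₀) S.vac‖ ^ 2 :=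
      mul_le_mul_of_nonneg_left h3 (by positivity)
    linarith
  -- Step 5: pick a good time.
  obtain ⟨t, ht⟩ := exists_le_norm_of_qT ω S.D T hω (v S.vac) (show (0 : ℝ) < c / 128 by positivity)
  refine ⟨S.flow t v, flow_mem_M S t hvM, ?_, ?_, ?_⟩
  · have h1 : ‖v₀‖ ≤ Real.sqrt (1 / (2 * ε)) := by
      rw [← Real.sqrt_sq (norm_nonneg v₀)]
      exact Real.sqrt_le_sqrt hv₀n
    calc ‖S.flow t v‖ ≤ ‖v‖ := norm_flow_le S t v
      _ ≤ 3 * ‖v₀‖ := hvn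
      _ ≤ 3 * Real.sqrt (1 / (2 * ε)) := by linarith
  · rw [flow_vac]
    rw [← Real.sqrt_sq (norm_nonneg (T (S.D.wave t (v S.vac))))]
    apply Real.sqrt_le_sqrt
    linarith
  · rw [flow_vac]
    exact supportedIn_wave S.D hvsupp t

/-- Bounded recovery. Let S be modular data on H (algebra M, cyclic separating unit vector ξ, D = log of the modular operator) with ergodic state, ω a free ultrafilter on ℕ, T a bounded operator, δₙ → 0 positive, hₙ unit vectors with D-spectral support in [s − δₙ, s + δₙ]. If some c > 0 bounds the ω-mean over t of ‖T exp(itD) hₙ‖² from below infinitely often, along a subsequence n_j there are v_j ∈ M, C and η > 0 with ‖v_j‖ ≤ C, ‖T (v_j ξ)‖ ≥ η, v_j ξ supported in [s − 4δ_{n_j}, s + 4δ_{n_j}]. -/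
theorem result
    {H : Type*} [NormedAddCommGroup H] [InnerProductSpace ℂ H] [CompleteSpace H]
    (S : Crest.OpAlg.ModularDatum H) (herg : S.Ergodic)
    (ω : Ultrafilter ℕ) (hω : (ω : Filter ℕ) ≤ Filter.atTop)
    (T : H →L[ℂ] H) (s : ℝ) (δ : ℕ → ℝ) (hδ : ∀ n, 0 < δ n)
    (hδ0 : Filter.Tendsto δ Filter.atTop (nhds 0))
    (h : ℕ → H) (hh : ∀ n, ‖h n‖ = 1)
    (hband : ∀ n, S.D.SupportedIn (Set.Icc (s - δ n) (s + δ n)) (h n))
    (hpos : ∃ c : ℝ, 0 < c ∧ ∃ᶠ n in Filter.atTop,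
      c ≤ Crest.OpAlg.ultraMean ω (fun t : ℝ => ‖T (S.D.wave t (h n))‖ ^ 2)) :
    ∃ (n' : ℕ → ℕ) (v : ℕ → (H →L[ℂ] H)) (C η : ℝ), StrictMono n' ∧ 0 < η ∧
      ∀ j : ℕ, v j ∈ S.M ∧ ‖v j‖ ≤ C ∧ η ≤ ‖T (v j S.vac)‖ ∧
        S.D.SupportedIn (Set.Icc (s - 4 * δ (n' j)) (s + 4 * δ (n' j))) (v j S.vac) := by
  obtain ⟨c, hc, hfreq⟩ := hpos
  have hev : ∀ᶠ n in Filter.atTop, δ n < 1 :=
    hδ0.eventually (Iio_mem_nhds (by norm_num : (0 : ℝ) < 1))
  have hfreq' := hfreq.and_eventually hev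
  obtain ⟨n', hmono, hn'⟩ := Filter.extraction_of_frequently_atTop hfreq'
  have key : ∀ j : ℕ, ∃ v : H →L[ℂ] H, v ∈ S.M ∧
      ‖v‖ ≤ 3 * Real.sqrt (1 / (2 * bndE s c ‖T‖)) ∧
      Real.sqrt (c / 128) ≤ ‖T (v S.vac)‖ ∧
      S.D.SupportedIn (Set.Icc (s - 4 * δ (n' j)) (s + 4 * δ (n' j))) (v S.vac) := by
    intro j
    exact one_index S herg ω hω T s (hδ (n' j)) (hn' j).2.le hc (hh (n' j)) (hband (n' j))
      (hn' j).1
  choose v hv using key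
  refine ⟨n', v, 3 * Real.sqrt (1 / (2 * bndE s c ‖T‖)), Real.sqrt (c / 128), hmono,
    Real.sqrt_pos.mpr (by positivity), hv⟩

end Crest.Agent.S0112
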