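import Crest.Statements.S0166
-- import your own Crest.Agent.* helpers here
import Crest.Agent.Helper4.Common
import Crest.Agent.Helper4.TreeSum
import Crest.Agent.Helper3.SumChains
import Crest.Agent.Helper7.Diamond
import Crest.Agent.Helper9.Reflexive
import Crest.Agent.Helper4.SumCore

set_option autoImplicit false
open Crest Crest.AnalysisR

namespace Crest.Agent.S0166

open Crest.Agent.Helper4

/-- the space: the `l²`-sum of the tree spaces of the depth-`k` global models. -/
noncomputable def E166 : Crest.AnalysisR.RealBanach :=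
  ⟨lp Gk 2, inferInstance, inferInstance, inferInstance⟩

/-- There is a real Banach space (RealBanach record) that is separable, infinite-dimensional and reflexive, whose given norm has at every t > 0 averaged midpoint asymptotic modulus at least √(1 + t²/12) - 1 and at least (√(1 + t²/4) - 1)/2 and maximum-based midpoint modulus at least √(1 + t²/4) - 1, on which no equivalent norm is asymptotically uniformly convex, and in which for every k every map of the depth-k countably branching diamond graph of distortion at most D has 1 + k/4 ≤ D². -/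
theorem result :
    ∃ E : Crest.AnalysisR.RealBanach, E.IsSeparableInfiniteDim ∧ E.IsReflexive ∧
      (∀ t : ℝ, 0 < t → E.MidpointModulusGE E.norm t (Real.sqrt (1 + t ^ 2 / 12) - 1) ∧
        E.MidpointModulusGE E.norm t ((Real.sqrt (1 + t ^ 2 / 4) - 1) / 2) ∧
        E.MaxMidpointModulusGE E.norm t (Real.sqrt (1 + t ^ 2 / 4) - 1)) ∧
      (∀ N : E.X → ℝ, E.IsEquivNorm N → ¬ E.IsAUC N) ∧
      ∀ (k : ℕ) (f : Crest.AnalysisR.DiamondVertex k → E.X) (D : ℝ),
        E.HasDistortionLE k f D → 1 + (k : ℝ) / 4 ≤ D ^ 2 := by
  have hcore : ∀ k, BlockCore' (Gk k) := fun k x ε hε => gk_core k x ε hε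
  have hmax : ∀ t : ℝ, 0 < t →
      E166.MaxMidpointModulusGE E166.norm t (Real.sqrt (1 + t ^ 2 / 4) - 1) :=
    fun t ht x hx η hη => lp_two_maxmidpoint' hcore t ht x hx η hη
  refine ⟨E166, ⟨?_, ?_⟩, ?_, ?_, ?_, ?_⟩
  · have : ∀ k, TopologicalSpace.SeparableSpace (Gk k) := gk_separable
    exact Crest.Agent.Helper9.separable_lp_two
  · exact Crest.Agent.Helper9.not_finiteDimensional_lp_two gk_nontrivial
  · exact Crest.Agent.Helper9.reflexive_lp_two gk_reflexive
  · intro t ht
    exact ⟨fun x hx η hη => lp_two_midpoint12' hcore t ht x hx η hη,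
      fun x hx η hη => lp_two_midpoint4' hcore t ht x hx η hη, hmax t ht⟩
  · intro N hN
    exact Crest.Agent.Helper3.lp_two_not_auc (κ := 1 / 2) (C := 1) (by norm_num) one_pos
      gk_chain hN
  · intro k f D h
    exact Crest.Agent.Helper7.diamond_distortion E166 hmax k f D h

end Crest.Agent.S0166
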