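import Crest.Statements.S0168
-- import your own Crest.Agent.* helpers here
import Crest.Agent.Helper4.Common
import Crest.Agent.Helper4.TreeTests
import Crest.Agent.Helper4.TreeSpace
import Crest.Agent.Helper4.TreeModels

set_option autoImplicit false
open Crest Crest.AnalysisR

namespace Crest.Agent.S0168

open Crest.Agent.Helper4 Crest.AnalysisR.TreePotential

/-- the Prelude model space is the abstract tree space of the class `IsTest m`. -/
theorem modelSpace_eq (m : PotentialModel) : modelSpace m = tspace (isTest_class m) := rfl

/-- For each of the four bounded-potential coordinate models on the countably branching tree (rootless sibling, rooted sibling, antichain, global), the generated space, namely the closure of the span of the coordinate vectors in the supremum norm over the model's tests, is separable and infinite-dimensional, its norm has at every unit centre and every 0 < t < 1 averaged midpoint asymptotic quantity at least √(1 + t²/4) - 1, and no equivalent norm on it is asymptotically uniformly convex. -/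
theorem result
    (m : Crest.AnalysisR.TreePotential.PotentialModel) :
    (Crest.AnalysisR.TreePotential.modelBanach m).IsSeparableInfiniteDim ∧
      (∀ t : ℝ, 0 < t → t < 1 →
        (Crest.AnalysisR.TreePotential.modelBanach m).MidpointModulusGE
          (Crest.AnalysisR.TreePotential.modelBanach m).norm t (Real.sqrt (1 + t ^ 2 / 4) - 1)) ∧
      ∀ N : (Crest.AnalysisR.TreePotential.modelBanach m).X → ℝ,
        (Crest.AnalysisR.TreePotential.modelBanach m).IsEquivNorm N →
          ¬ (Crest.AnalysisR.TreePotential.modelBanach m).IsAUC N := by
  have hP := isTest_class m
  refine ⟨⟨?_, ?_⟩, ?_, ?_⟩
  · exact tspace_separable hP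
  · exact tspace_not_finiteDimensional hP (fun n => isTest_single_cons m n [])
  · intro t ht ht1 x hx η hη
    exact tree_midpoint hP ht ht1 x hx hη
  · intro N hN
    exact not_auc_tree hP (isTest_single_cons m) hN

end Crest.Agent.S0168
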