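import Crest.Statements.S0169
import Crest.Agent.Helper4.Common
import Crest.Agent.Helper5.TreeProb

set_option autoImplicit false
open MeasureTheory ProbabilityTheory
open Crest Crest.AnalysisR

namespace Crest.Agent.S0169

/-- Let ν be a Borel probability law on ℝ carried by (0,∞), not a point mass, with mean 1 and finite second moment, and W an independent family of real random variables on a probability space indexed by the vertices of the countably branching tree (finite lists of naturals; root [], parent of a :: v is v), each non-root one with law ν. Then the closed linear span in L¹ of the path products ∏_{root ≺ u ≼ v} W_u is infinite-dimensional and has no equivalent asymptotically uniformly convex norm. -/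
theorem result (ν : Measure ℝ) [IsProbabilityMeasure ν] (hpos : ν (Set.Ioi 0) = 1)
    (hnc : ∀ c : ℝ, ν ≠ Measure.dirac c) (hmean : ∫ x, x ∂ν = 1)
    (hm2 : Integrable (fun x : ℝ => x ^ 2) ν)
    (Ω : Type) [MeasurableSpace Ω] (μ : Measure Ω) [IsProbabilityMeasure μ]
    (W : List ℕ → Ω → ℝ) (hW : Crest.AnalysisR.TreeProduct.IsRealization ν μ W) :
    ¬ FiniteDimensional ℝ (Crest.AnalysisR.TreeProduct.productSpan μ W) ∧
      ∀ N : (Crest.AnalysisR.TreeProduct.spanBanach μ W).X → ℝ,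
        (Crest.AnalysisR.TreeProduct.spanBanach μ W).IsEquivNorm N →
          ¬ (Crest.AnalysisR.TreeProduct.spanBanach μ W).IsAUC N := by
  have hint : Integrable (fun x : ℝ => x) ν := integrable_of_integral_eq_one hmean
  have hX : ∀ v, Integrable (TreeProduct.pathProduct W v) μ := fun v =>
    (Helper5.pathProduct_facts hW hpos hint hmean v).1
  have hκ : 0 < ∫ x, |x - 1| ∂ν := Helper5.kappa_pos hnc hint
  obtain ⟨κ, hκdef⟩ : ∃ κ : ℝ, κ = ∫ x, |x - 1| ∂ν := ⟨_, rfl⟩
  rw [← hκdef] at hκ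
  obtain ⟨σ, hσ⟩ : ∃ σ : ℝ, σ = Real.sqrt (∫ x, (x - 1) ^ 2 ∂ν) := ⟨_, rfl⟩
  -- the classes of the path products, as elements of the span
  obtain ⟨x, hx⟩ : ∃ x : List ℕ → ↥(TreeProduct.productSpan μ W),
      x = fun v => ⟨Helper5.xL1 hX v, Helper5.xL1_mem hX v⟩ := ⟨_, rfl⟩
  have hnorm : ∀ v, ‖x v‖ = 1 := fun v => by
    rw [hx]; exact Helper5.norm_xL1 hW hpos hint hmean hX v
  have hsub : ∀ n v, ‖x (n :: v) - x v‖ = κ := fun n v => by
    rw [hx, hκdef]; exact Helper5.norm_xL1_sub hW hpos hint hmean hX n v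
  have hsum : ∀ v (A : Finset ℕ) (ε : ℕ → ℝ), (∀ n, |ε n| ≤ 1) →
      ‖∑ n ∈ A, ε n • (x (n :: v) - x v)‖ ≤ σ * Real.sqrt A.card := by
    intro v A ε hε
    have h := Helper5.norm_sum_increments_le hW hpos hint hmean hm2 hX v A ε hε
    rw [← hσ] at h
    have hc : ((∑ n ∈ A, ε n • (x (n :: v) - x v) : ↥(TreeProduct.productSpan μ W)) :
        Lp ℝ 1 μ) = ∑ n ∈ A, ε n • (Helper5.xL1 hX (n :: v) - Helper5.xL1 hX v) := by
      rw [hx]
      simp
    calc ‖∑ n ∈ A, ε n • (x (n :: v) - x v)‖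
        = ‖((∑ n ∈ A, ε n • (x (n :: v) - x v) : ↥(TreeProduct.productSpan μ W)) :
            Lp ℝ 1 μ)‖ := rfl
      _ = ‖∑ n ∈ A, ε n • (Helper5.xL1 hX (n :: v) - Helper5.xL1 hX v)‖ := by rw [hc]
      _ ≤ σ * Real.sqrt A.card := h
  have hstep : ∀ v, ∀ F : Set ↥(TreeProduct.productSpan μ W), Helper4.Cof F → ∀ δ : ℝ, 0 < δ →
      ∃ d ∈ F, κ / 2 ≤ ‖d‖ ∧ ∃ n, ‖x v + d - x (n :: v)‖ ≤ δ := by
    intro v F hF δ hδ
    obtain ⟨n, d', hd'F, hd'0⟩ := Helper4.exists_near_cof (fun n => x (n :: v) - x v) σ (hsum v) hF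
      (δ := min δ (κ / 2)) (lt_min hδ (by positivity))
    have hd' : ‖d' - (x (n :: v) - x v)‖ ≤ min δ (κ / 2) := hd'0
    refine ⟨d', hd'F, ?_, n, ?_⟩
    · have h1 : ‖x (n :: v) - x v‖ ≤ ‖d'‖ + ‖d' - (x (n :: v) - x v)‖ := by
        have h := norm_sub_le d' (d' - (x (n :: v) - x v))
        rwa [sub_sub_cancel] at h
      have h2 := hd'.trans (min_le_right _ _)
      rw [hsub] at h1
      linarith
    · have h : x v + d' - x (n :: v) = d' - (x (n :: v) - x v) := by abel
      rw [h]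
      exact hd'.trans (min_le_left _ _)
  constructor
  · intro hfd
    have := hfd
    have hF := Helper4.cof_ker (ContinuousLinearMap.id ℝ ↥(TreeProduct.productSpan μ W))
    obtain ⟨d, hdF, hdκ, -⟩ := hstep [] _ hF 1 one_pos
    have hd0 : d = 0 := hdF
    rw [hd0, norm_zero] at hdκ
    linarith
  · intro N hN hauc
    have hN' : Helper4.EquivNorm (X := ↥(TreeProduct.productSpan μ W)) N := hN
    have hauc' : Helper4.AUC (X := ↥(TreeProduct.productSpan μ W)) N := hauc
    refine Helper4.not_auc_of_selfSimilar (κ := κ / 2) (C := 1) (by positivity) one_pos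
      (Set.range x) ⟨x [], ⟨[], rfl⟩⟩ ?_ ?_ hN' hauc'
    · rintro _ ⟨v, rfl⟩
      rw [hnorm]
      norm_num
    · rintro _ ⟨v, rfl⟩ F hF δ hδ
      obtain ⟨d, hdF, hdκ, n, hn⟩ := hstep v F hF δ hδ
      exact ⟨d, hdF, hdκ, x (n :: v), ⟨n :: v, rfl⟩, hn⟩

end Crest.Agent.S0169
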