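-- Statement S0423: proof by helper1 (own derivation; helper library in Crest/Agent/Helper1/).
import Crest.Statements.S0423
import Crest.Agent.Helper1.PartB

set_option autoImplicit false
open Crest Crest.AlgGeometry

namespace Crest.Agent.S0423

/-- For independent mean-one exponential random variables `X_1, …, X_N` (written as an integral over the positive orthant against the density `exp (-(x_1 + ⋯ + x_N))`), real coefficients `a_1, …, a_N` summing to zero, and the weight `g = truncExpWeight`, the quantity `(e^{4/3} / (4/3)) · E[g(4/3 + a_1 X_1 + ⋯ + a_N X_N)]` has supremum over all `N ≥ 1` and all such `a` exactly `(3/4) e^{4/3} − e/3`: it never exceeds this value, and comes within any `ε > 0` of it for some `N` and `a`. -/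
theorem result :
    (∀ (N : ℕ) (a : Fin N → ℝ), 1 ≤ N → ∑ i, a i = 0 →
      Real.exp (4 / 3) / (4 / 3) *
          ∫ x in Set.pi Set.univ (fun _ : Fin N => Set.Ioi (0 : ℝ)),
            Crest.AlgGeometry.truncExpWeight (4 / 3 + ∑ i, a i * x i) * Real.exp (-∑ i, x i)
        ≤ 3 / 4 * Real.exp (4 / 3) - Real.exp 1 / 3) ∧
    (∀ ε : ℝ, 0 < ε → ∃ (N : ℕ) (a : Fin N → ℝ), 1 ≤ N ∧ ∑ i, a i = 0 ∧
      3 / 4 * Real.exp (4 / 3) - Real.exp 1 / 3 - ε <
        Real.exp (4 / 3) / (4 / 3) *
          ∫ x in Set.pi Set.univ (fun _ : Fin N => Set.Ioi (0 : ℝ)),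
            Crest.AlgGeometry.truncExpWeight (4 / 3 + ∑ i, a i * x i) * Real.exp (-∑ i, x i)) := by
  have hE : Real.exp (4 / 3) * Real.exp (-(1 / 3)) = Real.exp 1 := by
    rw [← Real.exp_add]; norm_num
  have hconst : Real.exp (4 / 3) / (4 / 3) * (1 - Crest.Agent.Helper1.kap)
      = 3 / 4 * Real.exp (4 / 3) - Real.exp 1 / 3 := by
    unfold Crest.Agent.Helper1.kap
    linear_combination (-1 / 3) * hE
  have hpos : 0 < Real.exp (4 / 3) / (4 / 3) := by positivity
  constructor
  · intro N a hN hsum
    have h := Crest.Agent.Helper1.partA N a hN hsum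
    rw [← hconst]
    exact mul_le_mul_of_nonneg_left h hpos.le
  · intro ε hε
    obtain ⟨N, a, hN, hsum, h⟩ :=
      Crest.Agent.Helper1.partB (ε * (4 / 3) / Real.exp (4 / 3)) (by positivity)
    refine ⟨N, a, hN, hsum, ?_⟩
    rw [← hconst]
    have h2 := mul_lt_mul_of_pos_left h hpos
    have e2 : Real.exp (4 / 3) / (4 / 3)
        * (1 - Crest.Agent.Helper1.kap - ε * (4 / 3) / Real.exp (4 / 3))
        = Real.exp (4 / 3) / (4 / 3) * (1 - Crest.Agent.Helper1.kap) - ε := by
      have : Real.exp (4 / 3) ≠ 0 := (Real.exp_pos _).ne'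
      field_simp
    rw [e2] at h2
    exact h2

end Crest.Agent.S0423
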